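import Vale.Agent.P088.H72.B.Defs

/-!
# P088, stage 2: row TOPO (topology of the domain `{ρ > 0}`)
-/

open MeasureTheory Set Filter Topology
open scoped ContDiff Matrix

noncomputable section

namespace Vale.Agent.P088.H873

open Vale.Agent.P088.LR Vale.Agent.P088.LR.B

variable {n : ℕ}

/-- Along a direction of increase, `ρ` changes sign at a zero. -/
theorem sign_line {ρ : V n → ℝ} (hρ : Dom ρ) {x : V n} (hx : ρ x = 0) :
    ∃ v : V n, ∀ᶠ t in 𝓝 (0 : ℝ), SignType.sign (ρ (x + t • v)) = SignType.sign t := by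
  obtain ⟨v, hv⟩ : ∃ v, 0 < fderiv ℝ ρ x v := by
    by_contra hcon
    push Not at hcon
    apply hρ.nz x hx
    ext v
    have h1 := hcon v
    have h2 := hcon (-v)
    rw [map_neg] at h2
    rw [zero_apply]
    linarith
  refine ⟨v, ?_⟩
  have hd : HasFDerivAt ρ (fderiv ℝ ρ x) (x + (0 : ℝ) • v) := by
    rw [zero_smul, add_zero]
    exact ((hρ.sm.differentiable (by simp)) x).hasFDerivAt
  have hl : HasDerivAt (fun t : ℝ => x + t • v) v 0 := by
    simpa using ((hasDerivAt_id (0 : ℝ)).smul_const v).const_add x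
  have hc : HasDerivAt (fun t : ℝ => ρ (x + t • v)) (fderiv ℝ ρ x v) 0 :=
    hd.comp_hasDerivAt (0 : ℝ) hl
  have h3 := eventually_nhdsWithin_sign_eq_of_deriv_pos (f := fun t : ℝ => ρ (x + t • v))
    (x₀ := 0) (by rw [hc.deriv]; exact hv) (by simp [hx])
  simpa using h3

theorem tend_line (x v : V n) : Tendsto (fun t : ℝ => x + t • v) (𝓝 0) (𝓝 x) := by
  have h : Continuous (fun t : ℝ => x + t • v) := by fun_prop
  simpa using h.tendsto 0

theorem freq_pos {ρ : V n → ℝ} (hρ : Dom ρ) {x : V n} (hx : ρ x = 0) :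
    x ∈ closure {y | 0 < ρ y} := by
  obtain ⟨v, hv⟩ := sign_line hρ hx
  rw [mem_closure_iff_frequently]
  refine (tend_line x v).frequently ?_
  have h1 : ∃ᶠ t in 𝓝 (0 : ℝ), (0 : ℝ) < t := by
    have : (0 : ℝ) ∈ closure (Ioi (0 : ℝ)) := by rw [closure_Ioi]; exact self_mem_Ici
    exact mem_closure_iff_frequently.1 this
  refine (h1.and_eventually hv).mono fun t ht => ?_
  show 0 < ρ (x + t • v)
  rw [← sign_eq_one_iff, ht.2, sign_eq_one_iff]
  exact ht.1

theorem freq_neg {ρ : V n → ℝ} (hρ : Dom ρ) {x : V n} (hx : ρ x = 0) :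
    x ∈ closure {y | ρ y < 0} := by
  obtain ⟨v, hv⟩ := sign_line hρ hx
  rw [mem_closure_iff_frequently]
  refine (tend_line x v).frequently ?_
  have h1 : ∃ᶠ t in 𝓝 (0 : ℝ), t < (0 : ℝ) := by
    have : (0 : ℝ) ∈ closure (Iio (0 : ℝ)) := by rw [closure_Iio]; exact self_mem_Iic
    exact mem_closure_iff_frequently.1 this
  refine (h1.and_eventually hv).mono fun t ht => ?_
  show ρ (x + t • v) < 0
  rw [← sign_eq_neg_one_iff, ht.2, sign_eq_neg_one_iff]
  exact ht.1

theorem topo : RowTOPO := by
  intro n ρ hρ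
  have hcont : Continuous ρ := hρ.sm.continuous
  have hopen : IsOpen (Om ρ) := isOpen_lt continuous_const hcont
  have hopen' : IsOpen {y | ρ y < 0} := isOpen_lt hcont continuous_const
  have hcl : closure (Om ρ) = {x | 0 ≤ ρ x} := by
    apply subset_antisymm
    · refine closure_minimal (fun x hx => ?_) (isClosed_le continuous_const hcont)
      have hx' : 0 < ρ x := hx
      exact hx'.le
    · intro x hx
      rcases (show 0 ≤ ρ x from hx).lt_or_eq with h | h
      · exact subset_closure h
      · exact freq_pos hρ h.symm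
  have hint : interior (closure (Om ρ)) = Om ρ := by
    apply subset_antisymm
    · intro x hx
      have h1 : (0 : ℝ) ≤ ρ x := by
        have := interior_subset hx
        rw [hcl] at this
        exact this
      rcases h1.lt_or_eq with h | h
      · exact h
      · exfalso
        have h2 := freq_neg hρ h.symm
        rw [mem_closure_iff_nhds] at h2
        obtain ⟨y, hy1, hy2⟩ := h2 _ (isOpen_interior.mem_nhds hx)
        have h3 := interior_subset hy1
        rw [hcl] at h3
        exact absurd (show 0 ≤ ρ y from h3) (not_le.2 hy2)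
    · exact interior_maximal subset_closure hopen
  refine ⟨hopen, ?_, ?_, hcl, hint, ?_⟩
  · intro x hx
    by_contra h
    have h1 := hρ.off x h
    have h2 : 0 < ρ x := hx
    rw [h1] at h2
    norm_num at h2
  · rw [hopen.frontier_eq, hcl]
    ext x
    constructor
    · rintro ⟨h1, h2⟩
      exact le_antisymm (not_lt.1 h2) h1
    · intro h
      exact ⟨le_of_eq (Eq.symm h), not_lt.2 (le_of_eq h)⟩
  · intro x
    by_cases h : ρ x = 0
    · refine closure_mono ?_ (freq_pos hρ h)
      intro y hy
      exact ne_of_gt hy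
    · exact subset_closure h

end Vale.Agent.P088.H873
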