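import Vale.Agent.P088.H198.K.Defs
import Vale.Agent.P088.H292.BExt

/-!
# P088, theorem JB, row K_EXT: extension by zero of matrix functions
-/

open MeasureTheory Set Filter Topology
open scoped ContDiff Matrix

noncomputable section

namespace Vale.Agent.P088.H873

open Vale.Agent.P088.LR Vale.Agent.P088.LR.B Vale.Agent.P088.LR.CF Vale.Agent.P088.LR.U
  Vale.Agent.P088.LR.H158

/-- Extension by zero of a complex function which is flat at the boundary. -/
theorem extC {n : ℕ} (ρ : V n → ℝ) (hρ : Dom ρ) (h : V n → ℂ)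
    (hdiv : ∀ m : ℕ, ∃ g : V n → ℂ, ContDiff ℝ ∞ g ∧ ∀ x, h x = ((ρ x ^ m : ℝ) : ℂ) * g x) :
    ContDiff ℝ ∞ (fun x => if 0 < ρ x then h x else 0) ∧
      ∀ k ε, Cl k ε h → Cl k ε (fun x => if 0 < ρ x then h x else 0) := by
  have hsm : ContDiff ℝ ∞ (fun x => if 0 < ρ x then h x else 0) := by
    rw [contDiff_infty]
    intro N
    obtain ⟨g, hg, hg'⟩ := hdiv (N + 1)
    have h1 : (fun x => if 0 < ρ x then h x else 0) =
        fun x => ((H292.pp (N + 1) (ρ x) : ℝ) : ℂ) * g x := by
      funext x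
      unfold H292.pp
      split_ifs with hx
      · exact hg' x
      · rw [Complex.ofReal_zero, zero_mul]
    rw [h1]
    have h2 : ContDiff ℝ (N : ℕ∞) (fun x => H292.pp (N + 1) (ρ x)) :=
      (H292.pp_contDiff N).comp (hρ.sm.of_le (by exact_mod_cast le_top))
    exact (Complex.ofRealCLM.contDiff.comp h2).mul (hg.of_le (by exact_mod_cast le_top))
  refine ⟨hsm, fun k ε hk l hl x => ?_⟩
  have hε : 0 ≤ ε := (norm_nonneg _).trans (hk l hl x)
  have hc : Continuous fun y => ‖iteratedFDeriv ℝ l (fun x => if 0 < ρ x then h x else 0) y‖ :=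
    (hsm.continuous_iteratedFDeriv (m := l) (by exact_mod_cast le_top)).norm
  have hcl : IsClosed {y | ‖iteratedFDeriv ℝ l (fun x => if 0 < ρ x then h x else 0) y‖ ≤ ε} :=
    isClosed_le hc continuous_const
  have hsub : {y | ρ y ≠ 0} ⊆
      {y | ‖iteratedFDeriv ℝ l (fun x => if 0 < ρ x then h x else 0) y‖ ≤ ε} := by
    intro y hy
    change ‖iteratedFDeriv ℝ l (fun x => if 0 < ρ x then h x else 0) y‖ ≤ ε
    rcases lt_or_gt_of_ne (show ρ y ≠ 0 from hy) with hy | hy
    · have h1 : (fun x => if 0 < ρ x then h x else 0) =ᶠ[𝓝 y] fun _ => 0 := by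
        filter_upwards [(isOpen_lt hρ.sm.continuous continuous_const).mem_nhds hy] with z hz
        have hz' : ρ z < 0 := hz
        rw [if_neg (not_lt.mpr hz'.le)]
      rw [(h1.iteratedFDeriv ℝ l).self_of_nhds]
      rcases Nat.eq_zero_or_pos l with h0 | h0
      · subst h0
        rw [norm_iteratedFDeriv_zero]
        simpa using hε
      · rw [iteratedFDeriv_const_of_ne (𝕜 := ℝ) h0.ne']
        simpa using hε
    · have h1 : (fun x => if 0 < ρ x then h x else 0) =ᶠ[𝓝 y] h := by
        filter_upwards [(isOpen_lt continuous_const hρ.sm.continuous).mem_nhds hy] with z hz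
        have hz' : 0 < ρ z := hz
        rw [if_pos hz']
      rw [(h1.iteratedFDeriv ℝ l).self_of_nhds]
      exact hk l hl y
  exact hcl.closure_subset_iff.mpr hsub (H292.dense_ne hρ x)

/-- (K_EXT). -/
theorem exc : K.RowEXC := by
  intro n N ρ hρ h _ hdiv
  have key : ∀ a b, ContDiff ℝ ∞ (fun x => if 0 < ρ x then h x a b else 0) ∧
      ∀ k ε, Cl k ε (fun x => h x a b) →
        Cl k ε (fun x => if 0 < ρ x then h x a b else 0) := fun a b =>
    extC ρ hρ (fun x => h x a b) fun m => by
      obtain ⟨g, hg, hg'⟩ := hdiv m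
      exact ⟨fun x => g x a b, hg a b, fun x => by
        rw [hg' x]; rfl⟩
  have e : ∀ a b, (fun x => (if 0 < ρ x then h x else 0 : Matrix (Fin N) (Fin N) ℂ) a b) =
      fun x => if 0 < ρ x then h x a b else 0 := by
    intro a b
    funext x
    split_ifs <;> rfl
  refine ⟨fun a b => ?_, fun k ε hk a b => ?_⟩
  · change ContDiff ℝ ∞ (fun x => (if 0 < ρ x then h x else 0 : Matrix (Fin N) (Fin N) ℂ) a b)
    rw [e a b]
    exact (key a b).1
  · change Cl k ε (fun x => (if 0 < ρ x then h x else 0 : Matrix (Fin N) (Fin N) ℂ) a b)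
    rw [e a b]
    exact (key a b).2 k ε (hk a b)

end Vale.Agent.P088.H873
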