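import Vale.Agent.P088.H738.G.Defs
import Vale.Agent.P088.H129.KDat

/-!
# P088, row G_DAT: equal Dirichlet-to-Neumann forms give `DatS`
-/

open MeasureTheory Set
open scoped ContDiff Matrix

noncomputable section

namespace Vale.Agent.P088.LR.G.H873

open Vale.Agent.P088.LR Vale.Agent.P088.LR.CF Vale.Agent.P088.LR.U Vale.Agent.P088.LR.H158

/-- **Row G_DAT** -/
theorem dat : G.RowDAT := by
  intro n N Ω hΩ hb g₁ g₂ hg₁ hg₂ hp₁ hp₂ A₁ A₂ hA₁ hA₂ hD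
  refine ⟨K.H129.dat Ω hΩ hb g₁ g₂ hg₁ hg₂ hp₁ hp₂ A₁ A₂ hA₁ hA₂ hD, ?_⟩
  intro f hf
  obtain ⟨u₁, v₁, u', v', h1, h2, h3, h4, he⟩ := hD f f hf hf
  have hfr : ∀ x ∈ frontier Ω, x ∉ Ω := fun x hx => by
    rw [hΩ.frontier_eq] at hx
    exact hx.2
  exact ⟨u₁, h1.1, h1.2.1,
    H292.UP.lav_of_weak hΩ hb (smM_sg hg₁ hp₁) (K.H129.symm_sg g₁ hp₁) hA₁ h1.1
      fun φ hφ h0 => h1.2.2 φ hφ fun x hx => h0 x (hfr x hx)⟩

end Vale.Agent.P088.LR.G.H873
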